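import Vale.Agent.Lib.P230.Assembly4
import Vale.Agent.Lib.P230.ParamsFine
import Vale.Agent.Lib.P230.WrapCore

/-!
# P230: the lattice covering density of every convex body in dimension `n` is at most
`n (log n)^(10 log log log n)`.
-/

set_option autoImplicit false

open MeasureTheory

namespace Vale.Agent.Results.P230.DensityLogLog

open Vale.Agent.Lib.P230 in
/-- For all large `n`, every convex body `K` in `ℝ^n` has a full rank lattice `A ℤ^n` with
`K + A ℤ^n = ℝ^n` and `vol K ≤ n (log n)^(10 log log log n) |det A|`. -/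
theorem result : ∃ n₀ : ℕ, ∀ n ≥ n₀, ∀ K : Set (Fin n → ℝ),
    Convex ℝ K → IsCompact K → (interior K).Nonempty →
    ∃ A : Matrix (Fin n) (Fin n) ℝ, A.det ≠ 0 ∧
      (∀ x : Fin n → ℝ, ∃ u ∈ K, ∃ m : Fin n → ℤ, x = u + A.mulVec (fun i => (m i : ℝ))) ∧
      (volume K).toReal ≤
        (n : ℝ) * (Real.log n) ^ (10 * Real.log (Real.log (Real.log n))) * |A.det| := by
  obtain ⟨d₀, hcore⟩ := core
  obtain ⟨n₀, hn₀⟩ := params_fine d₀
  refine ⟨n₀, fun n hn K hc hK hi => ?_⟩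
  obtain ⟨d, t, rfl, ht, hd, h8, h1, h2, h3⟩ := hn₀ n hn
  obtain ⟨A, hA, hcov, hvol⟩ := wrap_core _ K hc hK hi (fun K₂ hc₂ hK₂ hv₂ =>
    hcore d hd t (d + t) rfl ht h8 h1 h2 K₂ hc₂ hK₂ hv₂)
  exact ⟨A, hA, hcov, hvol.trans (mul_le_mul_of_nonneg_right h3 (abs_nonneg _))⟩

end Vale.Agent.Results.P230.DensityLogLog
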