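import Vale.Agent.Lib.P230.FineFinal

/-!
# P230: the lattice covering density of every convex body in dimension `n` is at most
`n (log n)^41`.
-/

set_option autoImplicit false

open MeasureTheory

namespace Vale.Agent.Results.P230.DensityPolylog

/-- For all large `n`, every convex body `K` in `ℝ^n` has a full rank lattice `A ℤ^n` with
`K + A ℤ^n = ℝ^n` and `vol K ≤ n (log n)^41 |det A|`. -/
theorem result : ∃ n₀ : ℕ, ∀ n ≥ n₀, ∀ K : Set (Fin n → ℝ),
    Convex ℝ K → IsCompact K → (interior K).Nonempty →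
    ∃ A : Matrix (Fin n) (Fin n) ℝ, A.det ≠ 0 ∧
      (∀ x : Fin n → ℝ, ∃ u ∈ K, ∃ m : Fin n → ℤ, x = u + A.mulVec (fun i => (m i : ℝ))) ∧
      (volume K).toReal ≤ (n : ℝ) * (Real.log n) ^ 41 * |A.det| :=
  Vale.Agent.Lib.P230.polylog_main

end Vale.Agent.Results.P230.DensityPolylog
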